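import Crest.Agent.R47.Core

/-! The chain argument: agreement on the anchor cells forces a copy. -/

set_option autoImplicit false

namespace Crest.Agent.R47

theorem ent_aa_iff {h i s j w : ℕ} (hi : i < 260 * h) (hj : j < 260 * h) :
    ent h i s j w ↔ (i / 65 = j / 65 ∧ i % 65 ≠ j % 65 ∧ okR i ∧ okC j) := by
  constructor
  · rintro (H | H | H | H)
    · exact H.2.2
    · omega
    · omega
    · omega
  · intro H
    exact Or.inl ⟨hi, hj, H⟩

theorem ent_av_iff {h i s j w : ℕ} (hi : i < 260 * h) (hj : 260 * h ≤ j) :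
    ent h i s j w ↔ (okR i ∧ compC h (i / 130) (i / 65 % 2) (j - 260 * h) w ∧
      (i % 65 = 64 → j - 260 * h = (i / 130 + 1) / 2)) := by
  constructor
  · rintro (H | H | H | H)
    · omega
    · exact H.2.2
    · omega
    · omega
  · intro H
    exact Or.inr (Or.inl ⟨hi, hj, H⟩)

theorem ent_va_iff {h i s j w : ℕ} (hi : 260 * h ≤ i) (hj : j < 260 * h) :
    ent h i s j w ↔ (okC j ∧ compR h (j / 130) (j / 65 % 2) (i - 260 * h) s ∧
      (j % 65 = 64 → i - 260 * h = (j / 130 + 2) / 2)) := by
  constructor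
  · rintro (H | H | H | H)
    · omega
    · omega
    · exact H.2.2
    · omega
  · intro H
    exact Or.inr (Or.inr (Or.inl ⟨hi, hj, H⟩))

theorem exists_step (c : ℕ → Prop) : ∀ n, c 0 → ¬ c n → ∃ k, k < n ∧ c k ∧ ¬ c (k + 1) := by
  intro n h0
  induction n with
  | zero => intro h; exact absurd h0 h
  | succ n ih =>
    intro hn
    by_cases hc : c n
    · exact ⟨n, by omega, hc, hn⟩
    · obtain ⟨k, hk, h1, h2⟩ := ih hc
      exact ⟨k, by omega, h1, h2⟩

theorem chain {h s : ℕ} (hh : 1 ≤ h) (hs : s < 2 ^ h) (σ ω : ℕ → ℕ) (b : ℕ → ℕ → Prop)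
    (hσ : ∀ i, 260 * h < i → i ≤ 261 * h → σ i = s)
    (hω : ∀ j, 260 * h ≤ j → j < 261 * h → ω j = s)
    (hb : ∀ i j, i ≤ 261 * h → j ≤ 261 * h → (i ≤ 260 * h ∨ j < 260 * h ∨ j = 261 * h) →
      (b i j ↔ ent h i (σ i) j (ω j))) :
    ∃ I J : Fin 66 → ℕ, StrictMono I ∧ StrictMono J ∧ (∀ x, I x ≤ 261 * h) ∧
      (∀ y, J y ≤ 261 * h) ∧ ∀ x y, b (I x) (J y) ↔ x ≠ y := by
  have c0 : b (260 * h + (0 + 1) / 2) (260 * h + 0 / 2) := by
    rw [hb _ _ (by omega) (by omega) (by omega)]
    refine Or.inr (Or.inr (Or.inr ⟨by omega, by omega, by omega, by omega, ?_⟩))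
    have e : 260 * h + (0 + 1) / 2 - 260 * h + (260 * h + 0 / 2 - 260 * h) = 0 := by omega
    rw [e, hω _ (by omega) (by omega)]
    exact F_zero hh hs
  have c1 : ¬ b (260 * h + (2 * h + 1) / 2) (260 * h + 2 * h / 2) := by
    rw [hb _ _ (by omega) (by omega) (by omega)]
    rintro (H | H | H | H)
    · omega
    · omega
    · omega
    · have e : 260 * h + (2 * h + 1) / 2 - 260 * h + (260 * h + 2 * h / 2 - 260 * h) = 2 * h := by
        omega
      have H' := H.2.2.2.2
      rw [e, hσ _ (by omega) (by omega)] at H'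
      exact F_last hs H'
  obtain ⟨k, hk, hk1, hk2⟩ :=
    exists_step (fun k => b (260 * h + (k + 1) / 2) (260 * h + k / 2)) (2 * h) c0 c1
  obtain ⟨β, hβ⟩ : ∃ β, β = bit s (lam h (fine h k)) := ⟨_, rfl⟩
  have hβ2 : β < 2 := hβ ▸ bit_lt _ _
  have hfine : (k < h ∧ fine h k = k + 1) ∨ (h ≤ k ∧ fine h k = k) := by
    unfold fine; split_ifs <;> omega
  have hR : ∀ p, (p = (k + 1) / 2 ∨ p = (k + 2) / 2) →
      compR h k β (260 * h + p - 260 * h) (σ (260 * h + p)) := by
    intro p hp
    refine ⟨by omega, fun hp' => ?_⟩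
    rw [hσ _ (by omega) (by omega), hβ]
  have hC : ∀ q, (q = k / 2 ∨ q = (k + 1) / 2) →
      compC h k β (260 * h + q - 260 * h) (ω (260 * h + q)) := by
    intro q hq
    refine ⟨by omega, fun hq' => ?_⟩
    rw [hω _ (by omega) (by omega), hβ]
  have haa : ∀ x y : ℕ, x < 65 → y < 65 → ¬ (k % 2 = 0 ∧ x = 64) → ¬ (k % 2 = 1 ∧ y = 64) →
      (b (130 * k + 65 * β + x) (130 * k + 65 * β + y) ↔ x ≠ y) := by
    intro x y hx hy h1 h2
    rw [hb _ _ (by omega) (by omega) (by omega), ent_aa_iff (by omega) (by omega)]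
    unfold okR okC
    omega
  have hav : ∀ x q : ℕ, x < 65 → ¬ (k % 2 = 0 ∧ x = 64) → (q = k / 2 ∨ q = (k + 1) / 2) →
      (b (130 * k + 65 * β + x) (260 * h + q) ↔ (x = 64 → q = (k + 1) / 2)) := by
    intro x q hx h1 hq
    rw [hb _ _ (by omega) (by omega) (by omega), ent_av_iff (by omega) (by omega)]
    have e1 : (130 * k + 65 * β + x) / 130 = k := by omega
    have e2 : (130 * k + 65 * β + x) / 65 % 2 = β := by omega
    have e3 : (130 * k + 65 * β + x) % 65 = x := by omega
    have e4 : okR (130 * k + 65 * β + x) := by unfold okR; omega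
    rw [e1, e2, e3]
    have := hC q hq
    constructor
    · intro H hx; have := H.2.2 hx; omega
    · intro H; exact ⟨e4, this, fun hx => by have := H hx; omega⟩
  have hva : ∀ p y : ℕ, y < 65 → ¬ (k % 2 = 1 ∧ y = 64) → (p = (k + 1) / 2 ∨ p = (k + 2) / 2) →
      (b (260 * h + p) (130 * k + 65 * β + y) ↔ (y = 64 → p = (k + 2) / 2)) := by
    intro p y hy h1 hp
    rw [hb _ _ (by omega) (by omega) (by omega), ent_va_iff (by omega) (by omega)]
    have e1 : (130 * k + 65 * β + y) / 130 = k := by omega
    have e2 : (130 * k + 65 * β + y) / 65 % 2 = β := by omega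
    have e3 : (130 * k + 65 * β + y) % 65 = y := by omega
    have e4 : okC (130 * k + 65 * β + y) := by unfold okC; omega
    rw [e1, e2, e3]
    have := hR p hp
    constructor
    · intro H hx; have := H.2.2 hx; omega
    · intro H; exact ⟨e4, this, fun hx => by have := H hx; omega⟩
  rcases Nat.mod_two_eq_zero_or_one k with hpar | hpar
  · refine ⟨fun x => if x.1 < 64 then 130 * k + 65 * β + x.1 else 260 * h + (k / 2 + (x.1 - 64)),
      fun y => if y.1 < 65 then 130 * k + 65 * β + y.1 else 260 * h + k / 2, ?_, ?_, ?_, ?_, ?_⟩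
    · intro x y hxy
      have : x.1 < y.1 := hxy
      have := y.2
      dsimp only
      split_ifs <;> omega
    · intro x y hxy
      have : x.1 < y.1 := hxy
      have := y.2
      dsimp only
      split_ifs <;> omega
    · intro x
      have := x.2
      dsimp only
      split_ifs <;> omega
    · intro x
      have := x.2
      dsimp only
      split_ifs <;> omega
    · intro x y
      have hx := x.2
      have hy := y.2
      rw [Ne, Fin.ext_iff]
      dsimp only
      split_ifs with h1 h2 h2
      · exact haa _ _ (by omega) h2 (by omega) (by omega)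
      · rw [hav _ _ (by omega) (by omega) (by omega)]
        omega
      · rw [hva _ _ h2 (by omega) (by omega)]
        omega
      · by_cases hx64 : x.1 = 64
        · have e1 : k / 2 + (x.1 - 64) = (k + 1) / 2 := by omega
          rw [e1]
          exact ⟨fun _ => by omega, fun _ => hk1⟩
        · have e1 : k / 2 + (x.1 - 64) = (k + 1 + 1) / 2 := by omega
          have e2 : k / 2 = (k + 1) / 2 := by omega
          rw [e1, e2]
          exact ⟨fun H => absurd H hk2, fun H => by omega⟩
  · refine ⟨fun x => if x.1 < 65 then 130 * k + 65 * β + x.1 else 260 * h + (k + 1) / 2,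
      fun y => if y.1 < 64 then 130 * k + 65 * β + y.1 else 260 * h + (k / 2 + (y.1 - 64)),
      ?_, ?_, ?_, ?_, ?_⟩
    · intro x y hxy
      have : x.1 < y.1 := hxy
      have := y.2
      dsimp only
      split_ifs <;> omega
    · intro x y hxy
      have : x.1 < y.1 := hxy
      have := y.2
      dsimp only
      split_ifs <;> omega
    · intro x
      have := x.2
      dsimp only
      split_ifs <;> omega
    · intro x
      have := x.2
      dsimp only
      split_ifs <;> omega
    · intro x y
      have hx := x.2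
      have hy := y.2
      rw [Ne, Fin.ext_iff]
      dsimp only
      split_ifs with h1 h2 h2
      · exact haa _ _ h1 (by omega) (by omega) (by omega)
      · rw [hav _ _ h1 (by omega) (by omega)]
        omega
      · rw [hva _ _ (by omega) (by omega) (by omega)]
        omega
      · by_cases hy64 : y.1 = 64
        · have e1 : k / 2 + (y.1 - 64) = k / 2 := by omega
          rw [e1]
          exact ⟨fun _ => by omega, fun _ => hk1⟩
        · have e1 : k / 2 + (y.1 - 64) = (k + 1) / 2 := by omega
          have e2 : (k + 1 + 1) / 2 = (k + 1) / 2 := by omega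
          rw [e1]
          rw [e2] at hk2
          exact ⟨fun H => absurd H hk2, fun H => by omega⟩

end Crest.Agent.R47
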