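import Mathlib

/-! Arithmetic core of the ordered-matrix construction (row 47). -/

set_option autoImplicit false

namespace Crest.Agent.R47

def lam (h f : ℕ) : ℕ := (h - f) + (f - h)

def F (h k s w : ℕ) : Prop :=
  w / 2 ^ (lam h k) + (if k < h then 0 else 1) ≤ s / 2 ^ (lam h k)

def bit (s l : ℕ) : ℕ := s / 2 ^ l % 2

def fine (h k : ℕ) : ℕ := if k < h then k + 1 else k

def coarse (h k : ℕ) : ℕ := if k < h then k else k + 1

def compR (h k β p s : ℕ) : Prop :=
  (p = (k + 1) / 2 ∨ p = (k + 2) / 2) ∧ (p = (fine h k + 1) / 2 → bit s (lam h (fine h k)) = β)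

def compC (h k β q w : ℕ) : Prop :=
  (q = k / 2 ∨ q = (k + 1) / 2) ∧ (q = fine h k / 2 → bit w (lam h (fine h k)) = β)

def okR (i : ℕ) : Prop := ¬ (i / 130 % 2 = 0 ∧ i % 65 = 64)

def okC (j : ℕ) : Prop := ¬ (j / 130 % 2 = 1 ∧ j % 65 = 64)

def ent (h i s j w : ℕ) : Prop :=
  (i < 260 * h ∧ j < 260 * h ∧ i / 65 = j / 65 ∧ i % 65 ≠ j % 65 ∧ okR i ∧ okC j) ∨
  (i < 260 * h ∧ 260 * h ≤ j ∧ okR i ∧ compC h (i / 130) (i / 65 % 2) (j - 260 * h) w ∧
    (i % 65 = 64 → j - 260 * h = (i / 130 + 1) / 2)) ∨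
  (260 * h ≤ i ∧ j < 260 * h ∧ okC j ∧ compR h (j / 130) (j / 65 % 2) (i - 260 * h) s ∧
    (j % 65 = 64 → i - 260 * h = (j / 130 + 2) / 2)) ∨
  (260 * h ≤ i ∧ 260 * h ≤ j ∧ (i = j ∨ i = j + 1) ∧ (i - 260 * h) + (j - 260 * h) ≤ 2 * h ∧
    F h ((i - 260 * h) + (j - 260 * h)) s w)

theorem F_mono {h k s s' w w' : ℕ} (hs : s ≤ s') (hw : w' ≤ w) (H : F h k s w) : F h k s' w' := by
  unfold F at *
  have h1 : s / 2 ^ lam h k ≤ s' / 2 ^ lam h k := Nat.div_le_div_right hs
  have h2 : w' / 2 ^ lam h k ≤ w / 2 ^ lam h k := Nat.div_le_div_right hw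
  omega

theorem F_zero {h s w : ℕ} (hh : 1 ≤ h) (hw : w < 2 ^ h) : F h 0 s w := by
  unfold F
  have h0 : lam h 0 = h := by unfold lam; omega
  rw [h0, Nat.div_eq_of_lt hw, if_pos (by omega)]
  exact Nat.zero_le _

theorem F_last {h s w : ℕ} (hs : s < 2 ^ h) : ¬ F h (2 * h) s w := by
  unfold F
  have h0 : lam h (2 * h) = h := by unfold lam; omega
  rw [h0, Nat.div_eq_of_lt hs, if_neg (by omega)]
  generalize w / 2 ^ h = a
  omega

theorem lam_coarse (h k : ℕ) : lam h (coarse h k) = lam h (fine h k) + 1 := by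
  unfold lam coarse fine
  split_ifs <;> omega

theorem F_fine_coarse {h k s w : ℕ} (hb : bit s (lam h (fine h k)) = bit w (lam h (fine h k)))
    (H : F h (fine h k) s w) : F h (coarse h k) s w := by
  unfold F at *
  rw [lam_coarse, pow_succ, ← Nat.div_div_eq_div_mul, ← Nat.div_div_eq_div_mul]
  unfold bit at hb
  generalize s / 2 ^ lam h (fine h k) = a at *
  generalize w / 2 ^ lam h (fine h k) = b at *
  unfold fine coarse at *
  split_ifs at * <;> omega

theorem F_coarse_fine {h k s w : ℕ} (hb : bit s (lam h (fine h k)) = bit w (lam h (fine h k)))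
    (H : F h (coarse h k) s w) : F h (fine h k) s w ∨ (k + 1 = h ∧ s = w) := by
  by_cases hk : k + 1 = h
  · have hf : fine h k = h := by unfold fine; split_ifs <;> omega
    have hc : coarse h k = k := by unfold coarse; split_ifs <;> omega
    have hl : lam h h = 0 := by unfold lam; omega
    have hl' : lam h k = 1 := by unfold lam; omega
    rw [hf, hl] at hb
    rw [hc] at H
    rw [hf]
    unfold F bit at *
    rw [hl'] at H
    rw [hl]
    simp only [pow_zero, Nat.div_one, pow_one] at *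
    split_ifs at * <;> omega
  · left
    unfold F at *
    rw [lam_coarse, pow_succ, ← Nat.div_div_eq_div_mul, ← Nat.div_div_eq_div_mul] at H
    unfold bit at hb
    generalize s / 2 ^ lam h (fine h k) = a at *
    generalize w / 2 ^ lam h (fine h k) = b at *
    unfold fine coarse at *
    split_ifs at * <;> omega

/-- rows of the same refined type have nested neighbourhoods -/
theorem ent_mono_row {h i s s' j w : ℕ} (hs : s ≤ s')
    (hb : 260 * h ≤ i →
      bit s (lam h (2 * (i - 260 * h) - 1)) = bit s' (lam h (2 * (i - 260 * h) - 1)) ∧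
      bit s (lam h (2 * (i - 260 * h))) = bit s' (lam h (2 * (i - 260 * h))))
    (H : ent h i s j w) : ent h i s' j w := by
  rcases H with H | H | H | H
  · exact Or.inl H
  · exact Or.inr (Or.inl H)
  · refine Or.inr (Or.inr (Or.inl ⟨H.1, H.2.1, H.2.2.1, ⟨H.2.2.2.1.1, ?_⟩, H.2.2.2.2⟩))
    intro hp
    have h1 := H.2.2.2.1.2 hp
    obtain ⟨hb1, hb2⟩ := hb H.1
    have : fine h (j / 130) = 2 * (i - 260 * h) - 1 ∨ fine h (j / 130) = 2 * (i - 260 * h) := by
      omega
    rcases this with e | e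
    · rw [e] at h1 ⊢; rw [← hb1]; exact h1
    · rw [e] at h1 ⊢; rw [← hb2]; exact h1
  · exact Or.inr (Or.inr (Or.inr ⟨H.1, H.2.1, H.2.2.1, H.2.2.2.1, F_mono hs le_rfl H.2.2.2.2⟩))

theorem ent_mono_col {h i s j w w' : ℕ} (hw : w' ≤ w)
    (hb : 260 * h ≤ j →
      bit w (lam h (2 * (j - 260 * h))) = bit w' (lam h (2 * (j - 260 * h))) ∧
      bit w (lam h (2 * (j - 260 * h) + 1)) = bit w' (lam h (2 * (j - 260 * h) + 1)))
    (H : ent h i s j w) : ent h i s j w' := by
  rcases H with H | H | H | H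
  · exact Or.inl H
  · refine Or.inr (Or.inl ⟨H.1, H.2.1, H.2.2.1, ⟨H.2.2.2.1.1, ?_⟩, H.2.2.2.2⟩)
    intro hp
    have h1 := H.2.2.2.1.2 hp
    obtain ⟨hb1, hb2⟩ := hb H.2.1
    have : fine h (i / 130) = 2 * (j - 260 * h) ∨ fine h (i / 130) = 2 * (j - 260 * h) + 1 := by
      omega
    rcases this with e | e
    · rw [e] at h1 ⊢; rw [← hb1]; exact h1
    · rw [e] at h1 ⊢; rw [← hb2]; exact h1
  · exact Or.inr (Or.inr (Or.inl H))
  · exact Or.inr (Or.inr (Or.inr ⟨H.1, H.2.1, H.2.2.1, H.2.2.2.1, F_mono le_rfl hw H.2.2.2.2⟩))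

/-- a column sees variable rows of at most two consecutive types -/
theorem ent_row_types (h j : ℕ) : ∃ p0 : ℕ, ∀ i s w, 260 * h ≤ i → ent h i s j w →
    i = p0 ∨ i = p0 + 1 := by
  by_cases hj : j < 260 * h
  · refine ⟨260 * h + (j / 130 + 1) / 2, fun i s w hi H => ?_⟩
    rcases H with H | H | H | H
    · omega
    · omega
    · have := H.2.2.2.1.1
      omega
    · omega
  · refine ⟨j, fun i s w hi H => ?_⟩
    rcases H with H | H | H | H
    · omega
    · omega
    · omega
    · omega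

theorem ent_col_types (h i : ℕ) : ∃ q0 : ℕ, ∀ j s w, 260 * h ≤ j → ent h i s j w →
    j = q0 ∨ j = q0 + 1 := by
  by_cases hi : i < 260 * h
  · refine ⟨260 * h + (i / 130) / 2, fun j s w hj H => ?_⟩
    rcases H with H | H | H | H
    · omega
    · have := H.2.2.2.1.1
      omega
    · omega
    · omega
  · refine ⟨i - 1, fun j s w hj H => ?_⟩
    rcases H with H | H | H | H
    · omega
    · omega
    · omega
    · omega

theorem bit_lt (s l : ℕ) : bit s l < 2 := Nat.mod_lt _ (by norm_num)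

/-- on compatible rows and columns an entry implies the coarse function -/
theorem ent_to_coarse {h k β i s j w : ℕ} (hi : 260 * h ≤ i) (hj : 260 * h ≤ j)
    (hR : compR h k β (i - 260 * h) s) (hC : compC h k β (j - 260 * h) w)
    (H : ent h i s j w) : F h (coarse h k) s w := by
  rcases H with H | H | H | H
  · omega
  · omega
  · omega
  · obtain ⟨-, -, h1, h2, h3⟩ := H
    obtain ⟨r1, r2⟩ := hR
    obtain ⟨c1, c2⟩ := hC
    have hcf : (i - 260 * h) + (j - 260 * h) = coarse h k ∨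
        (i - 260 * h) + (j - 260 * h) = fine h k := by
      unfold coarse fine
      split_ifs <;> omega
    rcases hcf with e | e
    · rwa [e] at h3
    · rw [e] at h3
      apply F_fine_coarse _ h3
      rw [r2 (by omega), c2 (by omega)]

theorem coarse_to_ent {h k β i s j w : ℕ} (hk : k < 2 * h) (hi : 260 * h ≤ i) (hj : 260 * h ≤ j)
    (hR : compR h k β (i - 260 * h) s) (hC : compC h k β (j - 260 * h) w)
    (H : F h (coarse h k) s w) :
    ent h i s j w ∨ (i = 260 * h + (h + 1) / 2 ∧ j = 260 * h + h / 2 ∧ s = w) := by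
  obtain ⟨r1, r2⟩ := hR
  obtain ⟨c1, c2⟩ := hC
  have hcf : (i - 260 * h) + (j - 260 * h) = coarse h k ∨
      (i - 260 * h) + (j - 260 * h) = fine h k := by
    unfold coarse fine
    split_ifs <;> omega
  have hle : (i - 260 * h) + (j - 260 * h) ≤ 2 * h := by omega
  have hij : i = j ∨ i = j + 1 := by omega
  rcases hcf with e | e
  · left
    refine Or.inr (Or.inr (Or.inr ⟨hi, hj, hij, hle, ?_⟩))
    rwa [e]
  · have hb : bit s (lam h (fine h k)) = bit w (lam h (fine h k)) := by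
      rw [r2 (by omega), c2 (by omega)]
    rcases F_coarse_fine hb H with H' | ⟨e1, e2⟩
    · left
      refine Or.inr (Or.inr (Or.inr ⟨hi, hj, hij, hle, ?_⟩))
      rwa [e]
    · right
      have hf : fine h k = h := by unfold fine; split_ifs <;> omega
      refine ⟨by omega, by omega, e2⟩

end Crest.Agent.R47
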