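import Mathlib

/-! Orders on (type, index) pairs: front blocks, an interleaved middle, back blocks. -/

set_option autoImplicit false

namespace Crest.Agent.R47

def Lay (m N _a _v : ℕ) : Type := Fin m × Fin N

instance (m N a v : ℕ) : Fintype (Lay m N a v) := inferInstanceAs (Fintype (Fin m × Fin N))

def layKey (m N a v : ℕ) (x : Fin m × Fin N) : ℕ ×ₗ ℕ ×ₗ ℕ :=
  if x.1.1 < a then toLex (0, toLex (x.1.1, x.2.1))
  else if x.1.1 < a + v then toLex (1, toLex (x.2.1, x.1.1))
  else toLex (2, toLex (x.1.1, x.2.1))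

theorem layKey_inj (m N a v : ℕ) : Function.Injective (layKey m N a v) := by
  rintro ⟨x1, x2⟩ ⟨y1, y2⟩ hxy
  unfold layKey at hxy
  simp only [Prod.mk.injEq, Fin.ext_iff]
  split_ifs at hxy <;> simp only [EmbeddingLike.apply_eq_iff_eq, Prod.mk.injEq] at hxy <;> omega

noncomputable instance (m N a v : ℕ) : LinearOrder (Lay m N a v) :=
  LinearOrder.lift' (layKey m N a v) (layKey_inj m N a v)

theorem exists_layout (m N a v : ℕ) :
    ∃ e : Fin m × Fin N ≃ Fin (m * N),
      (∀ x y : Fin m × Fin N, x.1 < y.1 → (x.1.1 < a ∨ a + v ≤ y.1.1 ∨ x.2 = y.2) → e x < e y) ∧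
      (∀ x y : Fin m × Fin N, a ≤ x.1.1 → x.1.1 < a + v → a ≤ y.1.1 → y.1.1 < a + v →
        e x ≤ e y → x.2 ≤ y.2) := by
  have hc : Fintype.card (Lay m N a v) = m * N := by
    show Fintype.card (Fin m × Fin N) = m * N
    simp
  let o := (monoEquivOfFin (Lay m N a v) hc).symm
  refine ⟨o.toEquiv, ?_, ?_⟩
  · intro x y h1 h2
    have : layKey m N a v x < layKey m N a v y := by
      have h1' : x.1.1 < y.1.1 := h1
      have h2' : x.1.1 < a ∨ a + v ≤ y.1.1 ∨ x.2.1 = y.2.1 := by
        rcases h2 with h | h | h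
        · exact Or.inl h
        · exact Or.inr (Or.inl h)
        · exact Or.inr (Or.inr (by rw [h]))
      unfold layKey
      split_ifs <;> simp only [Prod.Lex.toLex_lt_toLex, lt_self_iff_false, false_or, true_and] <;>
        omega
    exact o.lt_iff_lt.2 this
  · intro x y h1 h2 h3 h4 h5
    have h6 : layKey m N a v x ≤ layKey m N a v y := o.le_iff_le.1 h5
    unfold layKey at h6
    rw [if_neg (by omega), if_pos h2, if_neg (by omega), if_pos h4] at h6
    simp only [Prod.Lex.toLex_le_toLex, lt_self_iff_false, false_or, true_and] at h6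
    show x.2.1 ≤ y.2.1
    omega

end Crest.Agent.R47
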