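import Crest.Agent.R47.Core

/-! Rigidity: every copy of `J - I` in the host sits on the diagonal of the middle block. -/

set_option autoImplicit false

namespace Crest.Agent.R47

theorem anchor_row {h : ℕ} (i s j w : Fin 66 → ℕ) (hs : Monotone s)
    (hi : ∀ x y, x ≤ y → i y < 260 * h → i x ≤ i y)
    (hent : ∀ x y, ent h (i x) (s x) (j y) (w y) ↔ x ≠ y) : i 57 < 260 * h := by
  by_contra hcon
  have hvar : ∀ x : Fin 66, 57 ≤ x → 260 * h ≤ i x := by
    intro x hx
    by_contra hlt
    have := hi 57 x hx (by omega)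
    omega
  obtain ⟨p0, hp0⟩ := ent_row_types h (j 0)
  let emb : Fin 9 → Fin 66 := fun t => ⟨57 + t.1, by omega⟩
  have hemb : ∀ t, (57 : Fin 66) ≤ emb t := by
    intro t
    show 57 ≤ 57 + t.1
    omega
  let key : Fin 9 → Bool × Fin 2 × Fin 2 := fun t =>
    (decide (i (emb t) = p0),
      ⟨bit (s (emb t)) (lam h (2 * (i (emb t) - 260 * h) - 1)), bit_lt _ _⟩,
      ⟨bit (s (emb t)) (lam h (2 * (i (emb t) - 260 * h))), bit_lt _ _⟩)
  have main : ∀ t t' : Fin 9, t < t' → key t = key t' → False := by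
    intro t t' htt hk
    have hlt : emb t < emb t' := by
      show 57 + t.1 < 57 + t'.1
      have : t.1 < t'.1 := htt
      omega
    have hne0 : ∀ u, emb u ≠ 0 := by
      intro u hu
      have : 57 + u.1 = 0 := congrArg Fin.val hu
      omega
    have h1 := hp0 _ _ _ (hvar _ (hemb t)) ((hent (emb t) 0).2 (hne0 t))
    have h2 := hp0 _ _ _ (hvar _ (hemb t')) ((hent (emb t') 0).2 (hne0 t'))
    simp only [key, Prod.mk.injEq, decide_eq_decide, Fin.mk.injEq] at hk
    obtain ⟨k1, k2, k3⟩ := hk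
    have hty : i (emb t) = i (emb t') := by omega
    have h3 := (hent (emb t) (emb t')).2 hlt.ne
    rw [hty] at h3 k2 k3
    have h4 := ent_mono_row (hs hlt.le) (fun _ => ⟨k2, k3⟩) h3
    exact (hent (emb t') (emb t')).1 h4 rfl
  obtain ⟨t, t', hne, hk⟩ := Fintype.exists_ne_map_eq_of_card_lt key (by simp)
  rcases lt_or_gt_of_ne hne with hlt | hlt
  · exact main t t' hlt hk
  · exact main t' t hlt hk.symm

theorem anchor_col {h : ℕ} (i s j w : Fin 66 → ℕ) (hw : Antitone w)
    (hj : ∀ x y, x ≤ y → j y < 260 * h → j x ≤ j y)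
    (hent : ∀ x y, ent h (i x) (s x) (j y) (w y) ↔ x ≠ y) : j 57 < 260 * h := by
  by_contra hcon
  have hvar : ∀ x : Fin 66, 57 ≤ x → 260 * h ≤ j x := by
    intro x hx
    by_contra hlt
    have := hj 57 x hx (by omega)
    omega
  obtain ⟨p0, hp0⟩ := ent_col_types h (i 0)
  let emb : Fin 9 → Fin 66 := fun t => ⟨57 + t.1, by omega⟩
  have hemb : ∀ t, (57 : Fin 66) ≤ emb t := by
    intro t
    show 57 ≤ 57 + t.1
    omega
  let key : Fin 9 → Bool × Fin 2 × Fin 2 := fun t =>
    (decide (j (emb t) = p0),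
      ⟨bit (w (emb t)) (lam h (2 * (j (emb t) - 260 * h))), bit_lt _ _⟩,
      ⟨bit (w (emb t)) (lam h (2 * (j (emb t) - 260 * h) + 1)), bit_lt _ _⟩)
  have main : ∀ t t' : Fin 9, t < t' → key t = key t' → False := by
    intro t t' htt hk
    have hlt : emb t < emb t' := by
      show 57 + t.1 < 57 + t'.1
      have : t.1 < t'.1 := htt
      omega
    have hne0 : ∀ u, (0 : Fin 66) ≠ emb u := by
      intro u hu
      have : 0 = 57 + u.1 := congrArg Fin.val hu
      omega
    have h1 := hp0 _ _ _ (hvar _ (hemb t)) ((hent 0 (emb t)).2 (hne0 t))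
    have h2 := hp0 _ _ _ (hvar _ (hemb t')) ((hent 0 (emb t')).2 (hne0 t'))
    simp only [key, Prod.mk.injEq, decide_eq_decide, Fin.mk.injEq] at hk
    obtain ⟨k1, k2, k3⟩ := hk
    have hty : j (emb t) = j (emb t') := by omega
    have h3 := (hent (emb t') (emb t)).2 hlt.ne'
    rw [hty] at h3 k2 k3
    have h4 := ent_mono_col (hw hlt.le) (fun _ => ⟨k2, k3⟩) h3
    exact (hent (emb t') (emb t')).1 h4 rfl
  obtain ⟨t, t', hne, hk⟩ := Fintype.exists_ne_map_eq_of_card_lt key (by simp)
  rcases lt_or_gt_of_ne hne with hlt | hlt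
  · exact main t t' hlt hk
  · exact main t' t hlt hk.symm

theorem ent_aa {h i s j w : ℕ} (hi : i < 260 * h) (hj : j < 260 * h) (H : ent h i s j w) :
    i / 65 = j / 65 ∧ okR i ∧ okC j := by
  rcases H with H | H | H | H
  · exact ⟨H.2.2.1, H.2.2.2.2⟩
  · omega
  · omega
  · omega

theorem ent_av {h i s j w : ℕ} (hi : i < 260 * h) (hj : 260 * h ≤ j) (H : ent h i s j w) :
    okR i ∧ compC h (i / 130) (i / 65 % 2) (j - 260 * h) w := by
  rcases H with H | H | H | H
  · omega
  · exact ⟨H.2.2.1, H.2.2.2.1⟩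
  · omega
  · omega

theorem ent_va {h i s j w : ℕ} (hi : 260 * h ≤ i) (hj : j < 260 * h) (H : ent h i s j w) :
    okC j ∧ compR h (j / 130) (j / 65 % 2) (i - 260 * h) s := by
  rcases H with H | H | H | H
  · omega
  · omega
  · exact ⟨H.2.2.1, H.2.2.2.1⟩
  · omega

/-- growth of a function that is strictly increasing while below a threshold -/
theorem grow (f : Fin 66 → ℕ) (a : ℕ) (hf : ∀ x y, x < y → f y < a → f x < f y) :
    ∀ n (hn : n < 66), f ⟨n, hn⟩ < a → f 0 + n ≤ f ⟨n, hn⟩ := by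
  intro n
  induction n with
  | zero => intro hn _; exact le_rfl
  | succ n ih =>
    intro hn hlt
    have h1 : f ⟨n, by omega⟩ < f ⟨n + 1, hn⟩ := hf _ _ (by simp [Fin.lt_def]) hlt
    have h2 := ih (by omega) (by omega)
    omega

theorem rigid {h : ℕ} (i s j w : Fin 66 → ℕ) (hs : Monotone s) (hw : Antitone w)
    (hi : ∀ x y, x ≤ y → i y < 260 * h → i x ≤ i y)
    (hj : ∀ x y, x ≤ y → j y < 260 * h → j x ≤ j y)
    (hent : ∀ x y, ent h (i x) (s x) (j y) (w y) ↔ x ≠ y) :
    i 65 = 260 * h + (h + 1) / 2 ∧ j 65 = 260 * h + h / 2 ∧ s 65 = w 65 := by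
  have hi57 := anchor_row i s j w hs hi hent
  have hj57 := anchor_col i s j w hw hj hent
  have hi0 : i 0 < 260 * h := lt_of_le_of_lt (hi 0 57 (by decide) hi57) hi57
  have hi2 : i 2 < 260 * h := lt_of_le_of_lt (hi 2 57 (by decide) hi57) hi57
  have hj0 : j 0 < 260 * h := lt_of_le_of_lt (hj 0 57 (by decide) hj57) hj57
  have hj1 : j 1 < 260 * h := lt_of_le_of_lt (hj 1 57 (by decide) hj57) hj57
  have m01 := (ent_aa hi0 hj1 ((hent 0 1).2 (by decide))).1
  have m21 := (ent_aa hi2 hj1 ((hent 2 1).2 (by decide))).1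
  have m20 := (ent_aa hi2 hj0 ((hent 2 0).2 (by decide))).1
  have m00 : i 0 / 65 = j 0 / 65 := by omega
  have si : ∀ x y, x < y → i y < 260 * h → i x < i y := by
    intro x y hxy hy
    have h1 := hi x y hxy.le hy
    rcases h1.lt_or_eq with h2 | h2
    · exact h2
    · exfalso
      have h3 := (hent x y).2 hxy.ne
      rw [h2] at h3
      have h4 := ent_mono_row (hs hxy.le) (fun hc => by omega) h3
      exact (hent y y).1 h4 rfl
  have sj : ∀ x y, x < y → j y < 260 * h → j x < j y := by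
    intro x y hxy hy
    have h1 := hj x y hxy.le hy
    rcases h1.lt_or_eq with h2 | h2
    · exact h2
    · exfalso
      have h3 := (hent y x).2 hxy.ne'
      rw [h2] at h3
      have h4 := ent_mono_col (hw hxy.le) (fun hc => by omega) h3
      exact (hent y y).1 h4 rfl
  have hi65 : 260 * h ≤ i 65 := by
    by_contra hc
    have h1 := grow i _ si 65 (by norm_num) (not_le.1 hc)
    have h2 := (ent_aa (not_le.1 hc) hj0 ((hent 65 0).2 (by decide))).1
    have h3 : i ⟨65, by norm_num⟩ = i 65 := rfl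
    omega
  have hj65 : 260 * h ≤ j 65 := by
    by_contra hc
    have h1 := grow j _ sj 65 (by norm_num) (not_le.1 hc)
    have h2 := (ent_aa hi0 (not_le.1 hc) ((hent 0 65).2 (by decide))).1
    have h3 : j ⟨65, by norm_num⟩ = j 65 := rfl
    omega
  have hR65 := (ent_va hi65 hj0 ((hent 65 0).2 (by decide))).2
  have hC65 := (ent_av hi0 hj65 ((hent 0 65).2 (by decide))).2
  have ek : i 0 / 130 = j 0 / 130 := by omega
  rw [ek, m00] at hC65
  have hk : j 0 / 130 < 2 * h := by omega
  have hG : F h (coarse h (j 0 / 130)) (s 65) (w 65) := by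
    rcases Nat.mod_two_eq_zero_or_one (j 0 / 130) with hpar | hpar
    · -- vertical move
      have hi64 : 260 * h ≤ i 64 := by
        by_contra hc
        have h1 := grow i _ si 64 (by norm_num) (not_le.1 hc)
        have h2 := ent_aa (not_le.1 hc) hj0 ((hent 64 0).2 (by decide))
        have h3 : i ⟨64, by norm_num⟩ = i 64 := rfl
        have h4 := h2.1
        apply h2.2.1
        omega
      have hR64 := (ent_va hi64 hj0 ((hent 64 0).2 (by decide))).2
      have h1 := ent_to_coarse hi64 hj65 hR64 hC65 ((hent 64 65).2 (by decide))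
      exact F_mono (hs (by decide)) le_rfl h1
    · have hj64 : 260 * h ≤ j 64 := by
        by_contra hc
        have h1 := grow j _ sj 64 (by norm_num) (not_le.1 hc)
        have h2 := ent_aa hi0 (not_le.1 hc) ((hent 0 64).2 (by decide))
        have h3 : j ⟨64, by norm_num⟩ = j 64 := rfl
        have h4 := h2.1
        apply h2.2.2
        omega
      have hC64 := (ent_av hi0 hj64 ((hent 0 64).2 (by decide))).2
      rw [ek, m00] at hC64
      have h1 := ent_to_coarse hi65 hj64 hR65 hC64 ((hent 65 64).2 (by decide))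
      exact F_mono le_rfl (hw (by decide)) h1
  rcases coarse_to_ent hk hi65 hj65 hR65 hC65 hG with H | H
  · exact absurd rfl ((hent 65 65).1 H)
  · exact H

end Crest.Agent.R47
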