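import Crest.Prelude.Def_OrderedMatrix
import Crest.Agent.R47.Rigid
import Crest.Agent.R47.Chain
import Crest.Agent.R47.Layout

/-! Assembly of the host matrix. -/

set_option autoImplicit false

namespace Crest.Agent.R47

open Crest.CombinatoricsR.OrderedMatrix

def pat : Fin 66 → Fin 66 → Bool := fun x y => decide (x ≠ y)

def sig (h N i t : ℕ) : ℕ := if i ≤ 260 * h then 0 else if i ≤ 261 * h then t else N

def omg (h N j t : ℕ) : ℕ := if j < 260 * h then N else if j < 261 * h then N - 1 - t else 0

theorem main (h m : ℕ) (hh : 1 ≤ h) (hm : 261 * h < m) :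
    ∃ A : Fin (m * 2 ^ h) → Fin (m * 2 ^ h) → Bool,
      (∀ B : Fin (m * 2 ^ h) → Fin (m * 2 ^ h) → Bool, orderedCopyCount pat B = 0 →
        2 ^ h * 2 ^ h ≤ (Finset.univ.filter
          (fun rc : Fin (m * 2 ^ h) × Fin (m * 2 ^ h) => A rc.1 rc.2 ≠ B rc.1 rc.2)).card) ∧
      orderedCopyCount pat A ≤ 2 ^ h * ((m * 2 ^ h) ^ 65 * (m * 2 ^ h) ^ 65) := by
  classical
  obtain ⟨N, hN⟩ : ∃ N, N = 2 ^ h := ⟨_, rfl⟩
  rw [← hN]
  have hNpos : 0 < N := by rw [hN]; positivity
  haveI : NeZero N := ⟨hNpos.ne'⟩
  obtain ⟨er, er1, er2⟩ := exists_layout m N (260 * h + 1) h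
  obtain ⟨ec, ec1, ec2⟩ := exists_layout m N (260 * h) h
  refine ⟨fun r c => decide (ent h (er.symm r).1.1 (sig h N (er.symm r).1.1 (er.symm r).2.1)
      (ec.symm c).1.1 (omg h N (ec.symm c).1.1 (ec.symm c).2.1)), ?_, ?_⟩
  · intro B hB
    let rs : Fin N × Fin N → Fin m → Fin m × Fin N := fun su i =>
      (i, if i.1 ≤ 260 * h then su.2 + su.1 else su.1)
    let cs : Fin N × Fin N → Fin m → Fin m × Fin N := fun su j =>
      (j, if 260 * h ≤ j.1 ∧ j.1 < 261 * h then su.1.rev else su.2)
    have key : ∀ su : Fin N × Fin N, ∃ ij : Fin m × Fin m,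
        (ij.1.1 ≤ 260 * h ∨ ij.2.1 < 260 * h ∨ ij.2.1 = 261 * h) ∧
        decide (ent h ij.1.1 (sig h N ij.1.1 (rs su ij.1).2.1) ij.2.1
          (omg h N ij.2.1 (cs su ij.2).2.1)) ≠ B (er (rs su ij.1)) (ec (cs su ij.2)) := by
      intro su
      by_contra hcon
      push Not at hcon
      let fm : ℕ → Fin m := fun i => if hi : i < m then ⟨i, hi⟩ else ⟨0, by omega⟩
      have hfm : ∀ i, i ≤ 261 * h → (fm i).1 = i := by
        intro i hi
        simp only [fm]
        rw [dif_pos (by omega)]
      obtain ⟨I, J, hI, hJ, hI', hJ', hIJ⟩ := chain (h := h) (s := su.1.1) hh (hN ▸ su.1.2)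
        (fun i => sig h N i (rs su (fm i)).2.1) (fun j => omg h N j (cs su (fm j)).2.1)
        (fun i j => B (er (rs su (fm i))) (ec (cs su (fm j))) = true)
        (by
          intro i h1 h2
          simp only [sig, rs]
          rw [if_neg (by omega), if_pos h2, hfm i h2, if_neg (by omega)])
        (by
          intro j h1 h2
          simp only [omg, cs]
          rw [if_neg (by omega), if_pos h2, hfm j h2.le, if_pos ⟨h1, h2⟩, Fin.val_rev]
          have := su.1.2
          omega)
        (by
          intro i j h1 h2 h3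
          have := hcon (fm i, fm j) (by simp only [hfm i h1, hfm j h2]; exact h3)
          simp only [hfm i h1, hfm j h2] at this
          rw [← this, decide_eq_true_iff])
      unfold orderedCopyCount at hB
      rw [Fintype.card_eq_zero_iff] at hB
      apply hB.false
      refine ⟨(fun x => er (rs su (fm (I x))), fun y => ec (cs su (fm (J y)))), ?_, ?_, ?_⟩
      · intro x y hxy
        have h1 := hI hxy
        have h2 := hfm _ (hI' x)
        have h3 := hfm _ (hI' y)
        apply er1
        · show (fm (I x)).1 < (fm (I y)).1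
          omega
        · by_cases hc : I x ≤ 260 * h
          · left
            show (fm (I x)).1 < _
            omega
          · right; right
            simp only [rs]
            rw [if_neg (by omega), if_neg (by omega)]
      · intro x y hxy
        have h1 := hJ hxy
        have h2 := hfm _ (hJ' x)
        have h3 := hfm _ (hJ' y)
        have h4 := hJ' y
        apply ec1
        · show (fm (J x)).1 < (fm (J y)).1
          omega
        · by_cases hc : J x < 260 * h
          · left
            show (fm (J x)).1 < _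
            omega
          · right
            by_cases hc' : J y = 261 * h
            · left
              show _ ≤ (fm (J y)).1
              omega
            · right
              simp only [cs]
              rw [if_pos (by omega), if_pos (by omega)]
      · intro x y
        have := hIJ x y
        simp only [pat]
        rw [Bool.eq_iff_iff, decide_eq_true_iff]
        exact this
    choose g hg1 hg2 using key
    have hcard : N * N = (Finset.univ : Finset (Fin N × Fin N)).card := by simp
    rw [hcard]
    apply Finset.card_le_card_of_injOn (fun su => (er (rs su (g su).1), ec (cs su (g su).2)))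
    · intro su _
      simp only [Finset.coe_filter, Finset.mem_univ, true_and, Set.mem_setOf_eq,
        Equiv.symm_apply_apply]
      exact hg2 su
    · intro su _ su' _ hE
      simp only [Prod.mk.injEq, EmbeddingLike.apply_eq_iff_eq, rs, cs] at hE
      obtain ⟨⟨e1, e2⟩, e3, e4⟩ := hE
      have h1 := hg1 su
      rw [← e1] at e2
      rw [← e3] at e4
      obtain ⟨s, u⟩ := su
      obtain ⟨s', u'⟩ := su'
      simp only at e2 e4
      split_ifs at e2 e4 with c1 c2 c2
      · have hs : s = s' := Fin.rev_injective e4
        subst hs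
        have hu : u = u' := add_right_cancel e2
        rw [hu]
      · subst e4
        have hs : s = s' := add_left_cancel e2
        rw [hs]
      · omega
      · rw [e2, e4]
  · unfold orderedCopyCount
    have hsig : ∀ x y : Fin m × Fin N, er x ≤ er y →
        sig h N x.1.1 x.2.1 ≤ sig h N y.1.1 y.2.1 := by
      intro x y hxy
      have hx := x.2.2
      have h1 : ¬ (y.1.1 < x.1.1 ∧ (y.1.1 < 260 * h + 1 ∨ 260 * h + 1 + h ≤ x.1.1)) := by
        rintro ⟨a1, a2⟩
        have := er1 y x a1 (by
          rcases a2 with a2 | a2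
          · exact Or.inl a2
          · exact Or.inr (Or.inl a2))
        exact absurd hxy (not_le.2 this)
      have h2 := fun a1 a2 a3 a4 => er2 x y a1 a2 a3 a4 hxy
      simp only [Fin.le_def] at h2
      unfold sig
      split_ifs <;> omega
    have homg : ∀ x y : Fin m × Fin N, ec x ≤ ec y →
        omg h N y.1.1 y.2.1 ≤ omg h N x.1.1 x.2.1 := by
      intro x y hxy
      have hx := x.2.2
      have h1 : ¬ (y.1.1 < x.1.1 ∧ (y.1.1 < 260 * h ∨ 260 * h + h ≤ x.1.1)) := by
        rintro ⟨a1, a2⟩
        have := ec1 y x a1 (by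
          rcases a2 with a2 | a2
          · exact Or.inl a2
          · exact Or.inr (Or.inl a2))
        exact absurd hxy (not_le.2 this)
      have h2 := fun a1 a2 a3 a4 => ec2 x y a1 a2 a3 a4 hxy
      simp only [Fin.le_def] at h2
      unfold omg
      split_ifs <;> omega
    have hty1 : ∀ x y : Fin m × Fin N, er x ≤ er y → y.1.1 < 260 * h → x.1.1 ≤ y.1.1 := by
      intro x y hxy hy
      by_contra hc
      have := er1 y x (by rw [Fin.lt_def]; omega) (Or.inl (by omega))
      exact absurd hxy (not_le.2 this)
    have hty2 : ∀ x y : Fin m × Fin N, ec x ≤ ec y → y.1.1 < 260 * h → x.1.1 ≤ y.1.1 := by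
      intro x y hxy hy
      by_contra hc
      have := ec1 y x (by rw [Fin.lt_def]; omega) (Or.inl (by omega))
      exact absurd hxy (not_le.2 this)
    have hcard : N * ((m * N) ^ 65 * (m * N) ^ 65) =
        Fintype.card (Fin N × (Fin 65 → Fin (m * N)) × (Fin 65 → Fin (m * N))) := by simp
    rw [hcard]
    have hrig : ∀ r c : Fin 66 → Fin (m * N), StrictMono r → StrictMono c →
        (∀ x y, decide (ent h (er.symm (r x)).1.1
          (sig h N (er.symm (r x)).1.1 (er.symm (r x)).2.1)
          (ec.symm (c y)).1.1 (omg h N (ec.symm (c y)).1.1 (ec.symm (c y)).2.1)) = pat x y) →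
        (er.symm (r 65)).1.1 = 260 * h + (h + 1) / 2 ∧ (ec.symm (c 65)).1.1 = 260 * h + h / 2 ∧
        (er.symm (r 65)).2.1 + (ec.symm (c 65)).2.1 + 1 = N := by
      intro r c hr hc hE
      obtain ⟨a1, a2, a3⟩ := rigid (h := h) (fun x => (er.symm (r x)).1.1)
        (fun x => sig h N (er.symm (r x)).1.1 (er.symm (r x)).2.1)
        (fun y => (ec.symm (c y)).1.1)
        (fun y => omg h N (ec.symm (c y)).1.1 (ec.symm (c y)).2.1)
        (fun x y hxy => hsig _ _ (by simpa using hr.monotone hxy))
        (fun x y hxy => homg _ _ (by simpa using hc.monotone hxy))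
        (fun x y hxy => hty1 _ _ (by simpa using hr.monotone hxy))
        (fun x y hxy => hty2 _ _ (by simpa using hc.monotone hxy))
        (fun x y => by
          have := hE x y
          simp only [pat, decide_eq_decide] at this
          exact this)
      refine ⟨a1, a2, ?_⟩
      simp only [sig, omg] at a3
      rw [if_neg (by omega), if_pos (by omega), if_neg (by omega), if_pos (by omega)] at a3
      have := (ec.symm (c 65)).2.2
      omega
    apply Fintype.card_le_of_injective (fun rc => ((er.symm (rc.1.1 65)).2,
      (fun x => rc.1.1 (Fin.castSucc x)), (fun x => rc.1.2 (Fin.castSucc x))))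
    rintro ⟨⟨r, c⟩, hr, hc, hE⟩ ⟨⟨r', c'⟩, hr', hc', hE'⟩ hEq
    simp only [Prod.mk.injEq] at hEq
    obtain ⟨e1, e2, e3⟩ := hEq
    obtain ⟨a1, a2, a3⟩ := hrig r c hr hc hE
    obtain ⟨b1, b2, b3⟩ := hrig r' c' hr' hc' hE'
    have e1' : (er.symm (r 65)).2.1 = (er.symm (r' 65)).2.1 := by rw [e1]
    have hr65 : r 65 = r' 65 := by
      apply er.symm.injective
      exact Prod.ext (Fin.ext (by omega)) e1
    have hc65 : c 65 = c' 65 := by
      apply ec.symm.injective
      exact Prod.ext (Fin.ext (by omega)) (Fin.ext (by omega))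
    apply Subtype.ext
    apply Prod.ext
    · funext x
      refine Fin.lastCases ?_ (fun x => ?_) x
      · exact hr65
      · exact congrFun e2 x
    · funext x
      refine Fin.lastCases ?_ (fun x => ?_) x
      · exact hc65
      · exact congrFun e3 x

end Crest.Agent.R47
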